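import Mathlib

/-!
# A positivity lemma for Young symmetrisers

For two subgroups `R`, `C` of a finite group with trivial intersection and a sign character `ε`,
the coefficient of `1` in `(a b)^2`, `a = ∑_{r ∈ R} ε(r) r`, `b = ∑_{c ∈ C} c`, is positive.
-/

namespace Vale.Agent.P197

section

variable {G : Type*} [Group G] [Fintype G] (R C : Subgroup G)
  [DecidablePred (· ∈ R)] [DecidablePred (· ∈ C)] (ε : G →* ℤˣ)

/-- signed indicator of `R` -/
def aFun (g : G) : ℤ := if g ∈ R then ((ε g : ℤˣ) : ℤ) else 0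

/-- indicator of `C` -/
def bFun (g : G) : ℤ := if g ∈ C then 1 else 0

/-- `a * b` -/
def phiFun (g : G) : ℤ := ∑ c : G, aFun R ε (g * c⁻¹) * bFun C c

/-- `b * a` -/
def psiFun (g : G) : ℤ := ∑ r : G, bFun C (g * r⁻¹) * aFun R ε r

theorem eps_sq (g : G) : ((ε g : ℤˣ) : ℤ) * ((ε g : ℤˣ) : ℤ) = 1 := by
  rcases Int.units_eq_one_or (ε g) with h | h <;> simp [h]

theorem aFun_mul_left {r : G} (hr : r ∈ R) (g : G) :
    aFun R ε (r * g) = ((ε r : ℤˣ) : ℤ) * aFun R ε g := by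
  unfold aFun
  by_cases hg : g ∈ R
  · rw [if_pos hg, if_pos (R.mul_mem hr hg), map_mul, Units.val_mul]
  · rw [if_neg hg, if_neg (fun h => hg ((Subgroup.mul_mem_cancel_left R hr).mp h)), mul_zero]

theorem aFun_mul_right {r : G} (hr : r ∈ R) (g : G) :
    aFun R ε (g * r) = aFun R ε g * ((ε r : ℤˣ) : ℤ) := by
  unfold aFun
  by_cases hg : g ∈ R
  · rw [if_pos hg, if_pos (R.mul_mem hg hr), map_mul, Units.val_mul]
  · rw [if_neg hg, if_neg (fun h => hg ((Subgroup.mul_mem_cancel_right R hr).mp h)), zero_mul]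

theorem phiFun_mul_left {r : G} (hr : r ∈ R) (g : G) :
    phiFun R C ε (r * g) = ((ε r : ℤˣ) : ℤ) * phiFun R C ε g := by
  unfold phiFun
  rw [Finset.mul_sum]
  refine Finset.sum_congr rfl (fun c _ => ?_)
  rw [mul_assoc r g, aFun_mul_left R ε hr, mul_assoc]

theorem psiFun_mul_right {r : G} (hr : r ∈ R) (g : G) :
    psiFun R C ε (g * r) = ((ε r : ℤˣ) : ℤ) * psiFun R C ε g := by
  unfold psiFun
  rw [Finset.mul_sum, ← Equiv.sum_comp (Equiv.mulRight r)]
  refine Finset.sum_congr rfl (fun y _ => ?_)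
  simp only [Equiv.coe_mulRight, mul_inv_rev]
  rw [aFun_mul_right R ε hr]
  have : g * r * (r⁻¹ * y⁻¹) = g * y⁻¹ := by group
  rw [this]
  ring

/-- `a * b * a`, first form -/
def hFun (g : G) : ℤ := ∑ r : G, phiFun R C ε (g * r⁻¹) * aFun R ε r

theorem hFun_eq (g : G) : hFun R C ε g = ∑ r : G, aFun R ε r * psiFun R C ε (r⁻¹ * g) := by
  unfold hFun phiFun psiFun
  have h1 : ∀ r' : G, ∑ c : G, aFun R ε (g * r'⁻¹ * c⁻¹) * bFun C c
      = ∑ r : G, aFun R ε r * bFun C (r⁻¹ * g * r'⁻¹) := by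
    intro r'
    rw [← Equiv.sum_comp ((Equiv.inv G).trans (Equiv.mulRight (g * r'⁻¹)))]
    refine Finset.sum_congr rfl (fun r _ => ?_)
    simp only [Equiv.trans_apply, Equiv.inv_apply, Equiv.coe_mulRight]
    have e1 : g * r'⁻¹ * (r⁻¹ * (g * r'⁻¹))⁻¹ = r := by group
    have e2 : r⁻¹ * (g * r'⁻¹) = r⁻¹ * g * r'⁻¹ := by group
    rw [e1, e2]
  simp only [h1, Finset.sum_mul, Finset.mul_sum]
  rw [Finset.sum_comm]
  refine Finset.sum_congr rfl (fun r _ => Finset.sum_congr rfl (fun r' _ => ?_))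
  ring

theorem sum_aFun_eps : ∑ r : G, aFun R ε r * ((ε r : ℤˣ) : ℤ) = (Nat.card R : ℤ) := by
  have : ∀ r : G, aFun R ε r * ((ε r : ℤˣ) : ℤ) = if r ∈ R then 1 else 0 := by
    intro r
    unfold aFun
    split_ifs
    · exact eps_sq ε r
    · simp
  rw [Finset.sum_congr rfl (fun r _ => this r), Finset.sum_boole]
  congr 1
  rw [Nat.card_eq_fintype_card, Fintype.card_subtype]

/-- The quantity to be shown positive. -/
def youngSum : ℤ := ∑ g : G, phiFun R C ε g * psiFun R C ε g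

theorem sum_hFun_sq :
    ∑ g : G, hFun R C ε g * hFun R C ε g = (Nat.card R : ℤ) ^ 2 * youngSum R C ε := by
  have h1 : ∀ g, hFun R C ε g * hFun R C ε g
      = ∑ r' : G, ∑ r : G, (aFun R ε r' * aFun R ε r) *
          (phiFun R C ε (g * r'⁻¹) * psiFun R C ε (r⁻¹ * g)) := by
    intro g
    conv_lhs => rw [hFun_eq R C ε g]
    conv_lhs => arg 1; rw [← hFun_eq R C ε g]; unfold hFun
    rw [Finset.sum_mul_sum]
    refine Finset.sum_congr rfl (fun r' _ => Finset.sum_congr rfl (fun r _ => ?_))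
    ring
  rw [Finset.sum_congr rfl (fun g _ => h1 g), Finset.sum_comm]
  have h2 : ∀ r' : G, ∑ g : G, ∑ r : G, (aFun R ε r' * aFun R ε r) *
          (phiFun R C ε (g * r'⁻¹) * psiFun R C ε (r⁻¹ * g))
      = ∑ r : G, (aFun R ε r' * ((ε r' : ℤˣ) : ℤ)) * (aFun R ε r * ((ε r : ℤˣ) : ℤ)) *
          youngSum R C ε := by
    intro r'
    rw [Finset.sum_comm]
    refine Finset.sum_congr rfl (fun r _ => ?_)
    by_cases hr' : r' ∈ R
    swap
    · simp [aFun, hr']
    by_cases hr : r ∈ R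
    swap
    · simp [aFun, hr]
    rw [← Finset.mul_sum, youngSum]
    rw [← Equiv.sum_comp ((Equiv.mulLeft r).trans (Equiv.mulRight r'))]
    have h3 : ∀ g : G, phiFun R C ε (((Equiv.mulLeft r).trans (Equiv.mulRight r')) g * r'⁻¹) *
        psiFun R C ε (r⁻¹ * ((Equiv.mulLeft r).trans (Equiv.mulRight r')) g)
        = (((ε r : ℤˣ) : ℤ) * ((ε r' : ℤˣ) : ℤ)) * (phiFun R C ε g * psiFun R C ε g) := by
      intro g
      simp only [Equiv.trans_apply, Equiv.coe_mulLeft, Equiv.coe_mulRight]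
      have e1 : r * g * r' * r'⁻¹ = r * g := by group
      have e2 : r⁻¹ * (r * g * r') = g * r' := by group
      rw [e1, e2, phiFun_mul_left R C ε hr, psiFun_mul_right R C ε hr']
      ring
    rw [Finset.sum_congr rfl (fun g _ => h3 g), ← Finset.mul_sum]
    ring
  rw [Finset.sum_congr rfl (fun r' _ => h2 r')]
  simp only [← Finset.sum_mul, ← Finset.mul_sum]
  rw [sum_aFun_eps]
  ring

theorem phiFun_one (hRC : ∀ g, g ∈ R → g ∈ C → g = 1) : phiFun R C ε 1 = 1 := by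
  unfold phiFun
  rw [Finset.sum_eq_single 1]
  · simp [aFun, bFun, R.one_mem, C.one_mem]
  · intro c _ hc
    unfold aFun bFun
    by_cases h1 : c ∈ C
    · have h2 : (1 : G) * c⁻¹ ∉ R := by
        intro h
        apply hc
        rw [one_mul] at h
        exact hRC c (by simpa using R.inv_mem h) h1
      rw [if_neg h2, zero_mul]
    · rw [if_neg h1, mul_zero]
  · intro h
    exact absurd (Finset.mem_univ _) h

theorem hFun_one (hRC : ∀ g, g ∈ R → g ∈ C → g = 1) : hFun R C ε 1 = (Nat.card R : ℤ) := by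
  unfold hFun
  rw [← sum_aFun_eps R ε]
  refine Finset.sum_congr rfl (fun r _ => ?_)
  by_cases hr : r ∈ R
  · have : (1 : G) * r⁻¹ = r⁻¹ * 1 := by group
    rw [this, phiFun_mul_left R C ε (R.inv_mem hr), phiFun_one R C ε hRC, map_inv]
    have : (((ε r)⁻¹ : ℤˣ) : ℤ) = ((ε r : ℤˣ) : ℤ) := by
      rw [Int.units_inv_eq_self]
    rw [this]
    ring
  · simp [aFun, hr]

theorem youngSum_pos (hRC : ∀ g, g ∈ R → g ∈ C → g = 1) : 0 < youngSum R C ε := by
  have hcard : (0 : ℤ) < (Nat.card R : ℤ) := by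
    have : 0 < Nat.card R := Nat.card_pos
    exact_mod_cast this
  have h1 : (Nat.card R : ℤ) * (Nat.card R : ℤ) ≤ ∑ g : G, hFun R C ε g * hFun R C ε g := by
    rw [← hFun_one R C ε hRC]
    exact Finset.single_le_sum (f := fun g => hFun R C ε g * hFun R C ε g)
      (fun g _ => mul_self_nonneg _) (Finset.mem_univ 1)
  rw [sum_hFun_sq] at h1
  by_contra hcon
  push Not at hcon
  have h2 : (Nat.card R : ℤ) ^ 2 * youngSum R C ε ≤ 0 :=
    mul_nonpos_of_nonneg_of_nonpos (by positivity) hcon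
  nlinarith

end

end Vale.Agent.P197
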