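import Vale.Agent.Lib.P197.Link
import Vale.Agent.Lib.P197.YoungPos

/-!
# The determinantal atoms `(1^k, β, β')`
-/

namespace Vale.Agent.P197

open MvPolynomial

section atom

variable (β : YoungDiagram)

/-- Row-preserving permutations of the cells of `β`. -/
def rowSub : Subgroup (Equiv.Perm β.cells) where
  carrier := {π | ∀ p, (π p).1.1 = p.1.1}
  mul_mem' := by
    intro a b ha hb p
    rw [Equiv.Perm.mul_apply, ha, hb]
  one_mem' := by
    intro p
    rfl
  inv_mem' := by
    intro a ha p
    have := ha (a⁻¹ p)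
    simpa using this.symm

/-- Column-preserving permutations of the cells of `β`. -/
def colSub : Subgroup (Equiv.Perm β.cells) where
  carrier := {π | ∀ p, (π p).1.2 = p.1.2}
  mul_mem' := by
    intro a b ha hb p
    rw [Equiv.Perm.mul_apply, ha, hb]
  one_mem' := by
    intro p
    rfl
  inv_mem' := by
    intro a ha p
    have := ha (a⁻¹ p)
    simpa using this.symm

theorem mem_rowSub {π : Equiv.Perm β.cells} : π ∈ rowSub β ↔ ∀ p, (π p).1.1 = p.1.1 := Iff.rfl

theorem mem_colSub {π : Equiv.Perm β.cells} : π ∈ colSub β ↔ ∀ p, (π p).1.2 = p.1.2 := Iff.rfl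

theorem rowSub_inter_colSub (g : Equiv.Perm β.cells) (h1 : g ∈ rowSub β) (h2 : g ∈ colSub β) :
    g = 1 := by
  ext p : 1
  apply Subtype.ext
  ext
  · exact h1 p
  · exact h2 p

theorem mul_inv_mem_rowSub (g c : Equiv.Perm β.cells) :
    g * c⁻¹ ∈ rowSub β ↔ ∀ p, (g p).1.1 = (c p).1.1 := by
  rw [mem_rowSub]
  constructor
  · intro h p
    have := h (c p)
    simpa using this
  · intro h p
    have := h (c⁻¹ p)
    simpa using this

theorem mul_inv_mem_colSub (g c : Equiv.Perm β.cells) :
    g * c⁻¹ ∈ colSub β ↔ ∀ p, (g p).1.2 = (c p).1.2 := by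
  rw [mem_colSub]
  constructor
  · intro h p
    have := h (c p)
    simpa using this
  · intro h p
    have := h (c⁻¹ p)
    simpa using this

/-- An enumeration of the cells of `β`. -/
noncomputable def enumCells : β.cells ≃ Fin β.card :=
  Fintype.equivFinOfCardEq (by rw [Fintype.card_coe])

/-- The one-column filling. -/
noncomputable def fillT : β.cells → ℕ × ℕ := fun p => ((enumCells β p : ℕ), 0)

/-- The identity filling of shape `β`. -/
def fillU : β.cells → ℕ × ℕ := fun p => p.1

/-- The transposed filling. -/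
def fillV : β.cells → ℕ × ℕ := fun p => p.1.swap

theorem colInit_fillT : ColInit (fillT β) := by
  constructor
  · intro p q h
    simp only [fillT, Prod.mk.injEq, and_true] at h
    exact (enumCells β).injective (Fin.ext h)
  · intro p i hi
    simp only [fillT] at hi
    have hi' : i < β.card := lt_trans hi (enumCells β p).2
    refine ⟨(enumCells β).symm ⟨i, hi'⟩, ?_⟩
    simp [fillT]

theorem colInit_fillU : ColInit (fillU β) := by
  constructor
  · intro p q h
    exact Subtype.ext h
  · intro p i hi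
    have hp : (p.1.1, p.1.2) ∈ β := (YoungDiagram.mem_cells _).mp p.2
    have : (i, p.1.2) ∈ β := β.up_left_mem (le_of_lt hi) le_rfl hp
    exact ⟨⟨(i, p.1.2), (YoungDiagram.mem_cells _).mpr this⟩, rfl⟩

theorem colInit_fillV : ColInit (fillV β) := by
  constructor
  · intro p q h
    exact Subtype.ext (Prod.swap_injective h)
  · intro p i hi
    have hp : (p.1.1, p.1.2) ∈ β := (YoungDiagram.mem_cells _).mp p.2
    have : (p.1.1, i) ∈ β := β.up_left_mem le_rfl (le_of_lt hi) hp
    exact ⟨⟨(p.1.1, i), (YoungDiagram.mem_cells _).mpr this⟩, rfl⟩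

theorem rowCount_fillT : rowCount (fillT β) = fun i => if i < β.card then 1 else 0 := by
  funext i
  unfold rowCount
  split_ifs with hi
  · rw [Finset.card_eq_one]
    refine ⟨(enumCells β).symm ⟨i, hi⟩, ?_⟩
    ext p
    rw [Finset.mem_filter, Finset.mem_singleton]
    constructor
    · intro h
      rw [Equiv.eq_symm_apply]
      exact Fin.ext h.2
    · intro h
      refine ⟨Finset.mem_univ _, ?_⟩
      rw [h]
      simp [fillT]
  · rw [Finset.card_eq_zero, Finset.filter_eq_empty_iff]
    intro p _ h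
    have h' : ((enumCells β p : ℕ)) = i := h
    exact hi (h' ▸ (enumCells β p).2)

theorem rowCount_fillU : rowCount (fillU β) = β.rowLen := by
  funext i
  rw [YoungDiagram.rowLen_eq_card]
  unfold rowCount
  apply Finset.card_bij (fun p _ => p.1)
  · intro p hp
    rw [Finset.mem_filter] at hp
    exact YoungDiagram.mem_row_iff.mpr ⟨(YoungDiagram.mem_cells _).mp p.2, hp.2⟩
  · intro p _ q _ h
    exact Subtype.ext h
  · intro c hc
    rw [YoungDiagram.mem_row_iff] at hc
    exact ⟨⟨c, (YoungDiagram.mem_cells _).mpr hc.1⟩,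
      Finset.mem_filter.mpr ⟨Finset.mem_univ _, hc.2⟩, rfl⟩

theorem rowCount_fillV : rowCount (fillV β) = β.colLen := by
  funext i
  rw [YoungDiagram.colLen_eq_card]
  unfold rowCount
  apply Finset.card_bij (fun p _ => p.1)
  · intro p hp
    rw [Finset.mem_filter] at hp
    exact YoungDiagram.mem_col_iff.mpr ⟨(YoungDiagram.mem_cells _).mp p.2, hp.2⟩
  · intro p _ q _ h
    exact Subtype.ext h
  · intro c hc
    rw [YoungDiagram.mem_col_iff] at hc
    exact ⟨⟨c, (YoungDiagram.mem_cells _).mpr hc.1⟩,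
      Finset.mem_filter.mpr ⟨Finset.mem_univ _, hc.2⟩, rfl⟩

/-- The evaluation point. -/
noncomputable def atomPoint : ℕ × ℕ × ℕ → ℝ := by
  classical
  exact fun x => if ∃ p : β.cells, ((enumCells β p : ℕ), p.1.1, p.1.2) = x then 1 else 0

theorem atomPoint_eq_one_iff (p q r : β.cells) :
    (∃ p' : β.cells, ((enumCells β p' : ℕ), p'.1.1, p'.1.2)
      = ((enumCells β p : ℕ), q.1.1, r.1.2)) ↔ (p.1.1 = q.1.1 ∧ p.1.2 = r.1.2) := by
  constructor
  · rintro ⟨p', h⟩
    simp only [Prod.mk.injEq] at h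
    have : p' = p := (enumCells β).injective (Fin.ext h.1)
    rw [this] at h
    exact h.2
  · rintro ⟨h1, h2⟩
    exact ⟨p, by rw [h1, h2]⟩

theorem colStab_fillT : colStab (fillT β) = Finset.univ := by
  ext π
  simp [colStab, fillT]

theorem prod_atomPoint [DecidablePred (· ∈ rowSub β)] [DecidablePred (· ∈ colSub β)]
    (π₁ π₂ π₃ : Equiv.Perm β.cells) :
    ∏ p, atomPoint β ((fillT β (π₁ p)).1, (fillU β (π₂ p)).1, (fillV β (π₃ p)).1)
      = if (π₁ * π₂⁻¹ ∈ rowSub β ∧ π₁ * π₃⁻¹ ∈ colSub β) then 1 else 0 := by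
  have hiff : (π₁ * π₂⁻¹ ∈ rowSub β ∧ π₁ * π₃⁻¹ ∈ colSub β) ↔
      ∀ p, ((π₁ p).1.1 = (π₂ p).1.1 ∧ (π₁ p).1.2 = (π₃ p).1.2) := by
    rw [mul_inv_mem_rowSub, mul_inv_mem_colSub, ← forall_and]
  by_cases h : (π₁ * π₂⁻¹ ∈ rowSub β ∧ π₁ * π₃⁻¹ ∈ colSub β)
  · rw [if_pos h]
    apply Finset.prod_eq_one
    intro p _
    unfold atomPoint
    exact if_pos ((atomPoint_eq_one_iff β (π₁ p) (π₂ p) (π₃ p)).mpr (hiff.mp h p))
  · rw [if_neg h]
    rw [hiff] at h
    push Not at h
    obtain ⟨p, hp⟩ := h
    apply Finset.prod_eq_zero (Finset.mem_univ p)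
    unfold atomPoint
    apply if_neg
    intro hcon
    have := (atomPoint_eq_one_iff β (π₁ p) (π₂ p) (π₃ p)).mp hcon
    exact hp this.1 this.2

theorem eval_kpoly_atom [DecidablePred (· ∈ rowSub β)] [DecidablePred (· ∈ colSub β)] :
    eval (atomPoint β) (kpoly (fillT β) (fillU β) (fillV β))
      = ((youngSum (rowSub β) (colSub β) Equiv.Perm.sign : ℤ) : ℝ) := by
  classical
  unfold kpoly youngSum phiFun psiFun
  simp only [map_sum, map_zsmul, map_prod, eval_X, prod_atomPoint, colStab_fillT]
  simp only [Finset.sum_mul_sum, Int.cast_sum]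
  refine Finset.sum_congr rfl (fun g _ => ?_)
  have hU : colStab (fillU β) = Finset.univ.filter (· ∈ colSub β) := by
    ext π
    simp only [colStab, Finset.mem_filter, Finset.mem_univ, true_and, mem_colSub]
    rfl
  have hV : colStab (fillV β) = Finset.univ.filter (· ∈ rowSub β) := by
    ext π
    simp only [colStab, Finset.mem_filter, Finset.mem_univ, true_and, mem_rowSub]
    rfl
  rw [hU, hV, Finset.sum_filter]
  refine Finset.sum_congr rfl (fun c _ => ?_)
  by_cases hc : c ∈ colSub β
  swap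
  · rw [if_neg hc]
    symm
    apply Finset.sum_eq_zero
    intro r _
    simp [bFun, hc]
  rw [if_pos hc, Finset.sum_filter]
  refine Finset.sum_congr rfl (fun r _ => ?_)
  by_cases hr : r ∈ rowSub β
  swap
  · rw [if_neg hr]
    simp [aFun, hr]
  rw [if_pos hr]
  by_cases h1 : g * c⁻¹ ∈ rowSub β
  swap
  · simp [aFun, h1]
  by_cases h2 : g * r⁻¹ ∈ colSub β
  swap
  · simp [bFun, h2]
  simp only [aFun, bFun, h1, h2, hc, hr, and_self, if_true, map_mul, map_inv,
    Int.units_inv_eq_self, Units.val_mul, zsmul_eq_mul, mul_one, one_mul, Int.cast_mul]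
  ring

/-- The determinantal atom: `KP (1^k, β, β')` with `k` the number of cells of `β`. -/
theorem KP_atom : KP (fun i => if i < β.card then 1 else 0) β.rowLen β.colLen := by
  classical
  refine ⟨β.cells, inferInstance, inferInstance, fillT β, fillU β, fillV β, colInit_fillT β,
    colInit_fillU β, colInit_fillV β, rowCount_fillT β, rowCount_fillU β, rowCount_fillV β, ?_⟩
  intro h0
  have h1 := eval_kpoly_atom β
  rw [h0, map_zero] at h1
  have h2 := youngSum_pos (rowSub β) (colSub β) Equiv.Perm.sign (rowSub_inter_colSub β)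
  have h3 : (youngSum (rowSub β) (colSub β) Equiv.Perm.sign : ℤ) = 0 := by
    exact_mod_cast h1.symm
  omega

end atom

end Vale.Agent.P197
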