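import Mathlib

/-!
# Specht modules via Specht polynomials, and Kronecker coefficients

Definitions used by the hand-ins for P197.
-/

namespace Vale.Agent.P197

open MvPolynomial

/-- The permutation representation of the symmetric group `S_n` on `ℂ[x_0, …, x_{n-1}]`:
`σ` sends the variable `x_i` to `x_{σ i}`. -/
noncomputable def permRep (n : ℕ) :
    Representation ℂ (Equiv.Perm (Fin n)) (MvPolynomial (Fin n) ℂ) where
  toFun σ := (rename σ).toLinearMap
  map_one' := by
    ext1 s
    ext1
    simp
  map_mul' σ τ := by
    ext1 s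
    ext1
    simp [rename_rename]

/-- The column stabiliser of a filling `t` (a point `p` sits in row `(t p).1`, column `(t p).2`):
all permutations of the points that preserve the column of every point. -/
def colStab {P : Type*} [Fintype P] [DecidableEq P] (t : P → ℕ × ℕ) : Finset (Equiv.Perm P) :=
  Finset.univ.filter fun π => ∀ p, (t (π p)).2 = (t p).2

/-- The Specht polynomial (polytabloid) of a filling `t`: the signed sum over the column
stabiliser of the monomials `∏ x_p ^ row(π p)`.  The monomial `∏ x_p ^ row(p)` encodes the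
tabloid of `t`; the signed sum equals the product of the Vandermonde determinants of the columns. -/
noncomputable def spechtPoly (R : Type*) [CommRing R] {P : Type*} [Fintype P] [DecidableEq P]
    (t : P → ℕ × ℕ) : MvPolynomial P R :=
  ∑ π ∈ colStab t, (Equiv.Perm.sign π : ℤ) • ∏ p, X p ^ (t (π p)).1

/-- `t` is a (bijective) tableau of shape `μ`: a bijection from the points onto the cells of `μ`. -/
def IsTableau (μ : YoungDiagram) {P : Type*} (t : P → ℕ × ℕ) : Prop :=
  Function.Injective t ∧ ∀ c, c ∈ μ ↔ ∃ p, t p = c

theorem rename_spechtPoly (R : Type*) [CommRing R] {P Q : Type*} [Fintype P] [DecidableEq P]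
    [Fintype Q] [DecidableEq Q] (e : P ≃ Q) (t : P → ℕ × ℕ) :
    rename e (spechtPoly R t) = spechtPoly R (t ∘ e.symm) := by
  unfold spechtPoly
  rw [map_sum]
  refine Finset.sum_equiv e.permCongr ?_ ?_
  · intro π
    simp only [colStab, Finset.mem_filter, Finset.mem_univ, true_and, Function.comp_apply,
      Equiv.permCongr_apply, Equiv.symm_apply_apply]
    constructor
    · intro h q
      exact h (e.symm q)
    · intro h p
      simpa using h (e p)
  · intro π _
    rw [map_zsmul, Equiv.Perm.sign_permCongr, map_prod]
    congr 1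
    refine Fintype.prod_equiv e _ _ ?_
    intro p
    simp

theorem IsTableau.comp_equiv {μ : YoungDiagram} {P Q : Type*} {t : P → ℕ × ℕ}
    (h : IsTableau μ t) (e : Q ≃ P) : IsTableau μ (t ∘ e) := by
  refine ⟨h.1.comp e.injective, fun c => ?_⟩
  rw [h.2 c]
  constructor
  · rintro ⟨p, rfl⟩
    exact ⟨e.symm p, by simp⟩
  · rintro ⟨q, rfl⟩
    exact ⟨e q, rfl⟩

/-- The Specht module `S^μ` inside `ℂ[x_0, …, x_{n-1}]`: the span of the Specht polynomials of
all tableaux of shape `μ` with entries `0, …, n-1` (it is zero unless `μ` has `n` cells). -/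
noncomputable def spechtSub (n : ℕ) (μ : YoungDiagram) : Subrepresentation (permRep n) where
  toSubmodule := Submodule.span ℂ
    {f | ∃ t : Fin n → ℕ × ℕ, IsTableau μ t ∧ f = spechtPoly ℂ t}
  apply_mem_toSubmodule σ v hv := by
    induction hv using Submodule.span_induction with
    | mem x hx =>
      obtain ⟨t, ht, rfl⟩ := hx
      refine Submodule.subset_span ⟨t ∘ σ.symm, ht.comp_equiv σ.symm, ?_⟩
      exact rename_spechtPoly ℂ σ t
    | zero => simp
    | add x y _ _ hx hy => rw [map_add]; exact Submodule.add_mem _ hx hy
    | smul a x _ hx => rw [map_smul]; exact Submodule.smul_mem _ a hx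

/-- The Specht module `S^μ` as a complex representation of `S_n`. -/
noncomputable def spechtRep (n : ℕ) (μ : YoungDiagram) :
    Representation ℂ (Equiv.Perm (Fin n)) (spechtSub n μ).toSubmodule :=
  (spechtSub n μ).toRepresentation

/-- The Kronecker coefficient `g(lam, mu, nu) = dim Hom_{S_n}(S^nu, S^lam ⊗ S^mu)`. -/
noncomputable def kronecker (n : ℕ) (lam mu nu : YoungDiagram) : ℕ :=
  Module.finrank ℂ (Representation.IntertwiningMap (spechtRep n nu)
    ((spechtRep n lam).tprod (spechtRep n mu)))

/-- The staircase diagram `ρ_m = (m, m-1, …, 1)`: cells `(i, j)` with `i + j < m`. -/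
def staircase (m : ℕ) : YoungDiagram where
  cells := (Finset.range m ×ˢ Finset.range m).filter fun c => c.1 + c.2 < m
  isLowerSet := by
    intro a b hab ha
    simp only [Finset.coe_filter, Finset.mem_product, Finset.mem_range, Set.mem_setOf_eq] at ha ⊢
    have h1 : b.1 ≤ a.1 := hab.1
    have h2 : b.2 ≤ a.2 := hab.2
    omega

end Vale.Agent.P197
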