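import Vale.Agent.Lib.P197.Defs

/-!
# From a non-vanishing symmetrised triple product to a non-zero intertwiner
-/

namespace Vale.Agent.P197

open MvPolynomial

section pairing

variable {P : Type*}

/-- The coefficientwise pairing with a fixed polynomial `D`, as a linear functional. -/
noncomputable def pairL (D : MvPolynomial P ℂ) : MvPolynomial P ℂ →ₗ[ℂ] ℂ :=
  ∑ m ∈ D.support, (coeff m D) • lcoeff ℂ m

theorem pairL_apply (D w : MvPolynomial P ℂ) :
    pairL D w = ∑ m ∈ D.support, coeff m D * coeff m w := by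
  simp [pairL, LinearMap.sum_apply]

theorem pairL_eq_sum (D w : MvPolynomial P ℂ) (S : Finset (P →₀ ℕ)) (hS : D.support ⊆ S) :
    pairL D w = ∑ m ∈ S, coeff m D * coeff m w := by
  rw [pairL_apply]
  refine Finset.sum_subset hS ?_
  intro m _ hm
  rw [notMem_support_iff.mp hm, zero_mul]

theorem pairL_rename [DecidableEq P] (σ : Equiv.Perm P) (D w : MvPolynomial P ℂ) :
    pairL (rename σ D) (rename σ w) = pairL D w := by
  classical
  rw [pairL_apply, pairL_apply, support_rename_of_injective σ.injective,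
    Finset.sum_image (fun a _ b _ h => Finsupp.mapDomain_injective σ.injective h)]
  refine Finset.sum_congr rfl ?_
  intro m _
  rw [coeff_rename_mapDomain _ σ.injective, coeff_rename_mapDomain _ σ.injective]

end pairing

theorem spechtPoly_map {P : Type*} [Fintype P] [DecidableEq P] (t : P → ℕ × ℕ) :
    map (algebraMap ℝ ℂ) (spechtPoly ℝ t) = spechtPoly ℂ t := by
  unfold spechtPoly
  rw [map_sum]
  refine Finset.sum_congr rfl ?_
  intro π _
  rw [map_zsmul, map_prod]
  simp

theorem spechtPoly_mem {n : ℕ} {μ : YoungDiagram} {t : Fin n → ℕ × ℕ} (ht : IsTableau μ t) :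
    spechtPoly ℂ t ∈ (spechtSub n μ).toSubmodule :=
  Submodule.subset_span ⟨t, ht, rfl⟩

section main

variable {n : ℕ} {lam mu nu : YoungDiagram} {T U V : Fin n → ℕ × ℕ}

/-- The element `σ · e_T` of the Specht module. -/
noncomputable def spechtElt (hT : IsTableau lam T) (σ : Equiv.Perm (Fin n)) :
    (spechtSub n lam).toSubmodule :=
  ⟨spechtPoly ℂ (T ∘ σ.symm), spechtPoly_mem (hT.comp_equiv σ.symm)⟩

theorem spechtRep_spechtElt (hT : IsTableau lam T) (g σ : Equiv.Perm (Fin n)) :
    spechtRep n lam g (spechtElt hT σ) = spechtElt hT (g * σ) := by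
  apply Subtype.ext
  change rename g (spechtPoly ℂ (T ∘ σ.symm)) = spechtPoly ℂ (T ∘ (g * σ).symm)
  rw [rename_spechtPoly]
  rfl

/-- The candidate intertwiner, as a linear map. -/
noncomputable def interLin (hT : IsTableau lam T) (hU : IsTableau mu U) (V : Fin n → ℕ × ℕ) :
    (spechtSub n nu).toSubmodule →ₗ[ℂ]
      TensorProduct ℂ (spechtSub n lam).toSubmodule (spechtSub n mu).toSubmodule :=
  ∑ σ : Equiv.Perm (Fin n),
    ((pairL (spechtPoly ℂ (V ∘ σ.symm))).comp (Submodule.subtype _)).smulRight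
      (spechtElt hT σ ⊗ₜ[ℂ] spechtElt hU σ)

theorem interLin_apply (hT : IsTableau lam T) (hU : IsTableau mu U) (V : Fin n → ℕ × ℕ)
    (w : (spechtSub n nu).toSubmodule) :
    interLin hT hU V w = ∑ σ : Equiv.Perm (Fin n),
      pairL (spechtPoly ℂ (V ∘ σ.symm)) w.1 • (spechtElt hT σ ⊗ₜ[ℂ] spechtElt hU σ) := by
  simp [interLin, LinearMap.sum_apply]

/-- The candidate intertwiner. -/
noncomputable def inter (hT : IsTableau lam T) (hU : IsTableau mu U) (V : Fin n → ℕ × ℕ) :
    Representation.IntertwiningMap (spechtRep n nu)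
      ((spechtRep n lam).tprod (spechtRep n mu)) where
  toLinearMap := interLin hT hU V
  isIntertwining' g := by
    ext w
    simp only [LinearMap.comp_apply]
    rw [interLin_apply, interLin_apply, map_sum]
    rw [← Equiv.sum_comp (Equiv.mulLeft g)]
    refine Finset.sum_congr rfl ?_
    intro σ _
    rw [map_smul, Representation.tprod_apply, TensorProduct.map_tmul, spechtRep_spechtElt,
      spechtRep_spechtElt]
    congr 1
    change pairL (spechtPoly ℂ (V ∘ (g * σ).symm)) (rename g w.1) = _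
    have : spechtPoly ℂ (V ∘ (g * σ).symm) = rename g (spechtPoly ℂ (V ∘ σ.symm)) := by
      rw [rename_spechtPoly]
      rfl
    rw [this, pairL_rename]

/-- Evaluation functional on the tensor product of two Specht modules. -/
noncomputable def evTensor (x y : Fin n → ℝ) :
    TensorProduct ℂ (spechtSub n lam).toSubmodule (spechtSub n mu).toSubmodule →ₗ[ℂ] ℂ :=
  (LinearMap.mul' ℂ ℂ).comp (TensorProduct.map
    ((aeval (fun i => (x i : ℂ))).toLinearMap.comp (Submodule.subtype _))
    ((aeval (fun i => (y i : ℂ))).toLinearMap.comp (Submodule.subtype _)))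

theorem aeval_spechtPoly (x : Fin n → ℝ) (t : Fin n → ℕ × ℕ) :
    aeval (fun i => (x i : ℂ)) (spechtPoly ℂ t) = ((eval x (spechtPoly ℝ t) : ℝ) : ℂ) := by
  rw [← spechtPoly_map, aeval_def, eval₂_map, ← coe_eval₂Hom]
  have : (eval₂Hom ((algebraMap ℂ ℂ).comp (algebraMap ℝ ℂ)) fun i => (x i : ℂ))
      = (algebraMap ℝ ℂ).comp (eval x) := by
    apply MvPolynomial.ringHom_ext
    · intro r
      simp
    · intro i
      simp
  rw [this]
  rfl

theorem inter_ne_zero (hT : IsTableau lam T) (hU : IsTableau mu U) (hV : IsTableau nu V)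
    (x y z : Fin n → ℝ)
    (h : ∑ σ : Equiv.Perm (Fin n), eval x (spechtPoly ℝ (T ∘ σ.symm)) *
      eval y (spechtPoly ℝ (U ∘ σ.symm)) * eval z (spechtPoly ℝ (V ∘ σ.symm)) ≠ 0) :
    (inter (nu := nu) hT hU V) ≠ 0 := by
  classical
  set α : Equiv.Perm (Fin n) → ℝ := fun σ =>
    eval x (spechtPoly ℝ (T ∘ σ.symm)) * eval y (spechtPoly ℝ (U ∘ σ.symm)) with hα
  set WR : MvPolynomial (Fin n) ℝ := ∑ σ, α σ • spechtPoly ℝ (V ∘ σ.symm) with hWR
  have hWR0 : WR ≠ 0 := by
    intro h0
    apply h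
    have := congrArg (eval z) h0
    rw [hWR, map_sum, map_zero] at this
    rw [← this]
    refine Finset.sum_congr rfl ?_
    intro σ _
    rw [smul_eval]
  set W : MvPolynomial (Fin n) ℂ := ∑ σ, (α σ : ℂ) • spechtPoly ℂ (V ∘ σ.symm) with hW
  have hWmem : W ∈ (spechtSub n nu).toSubmodule := by
    refine Submodule.sum_mem _ ?_
    intro σ _
    exact Submodule.smul_mem _ _ (spechtPoly_mem (hV.comp_equiv σ.symm))
  have hcoeff : ∀ m, coeff m W = ((coeff m WR : ℝ) : ℂ) := by
    intro m
    rw [hW, hWR, coeff_sum, coeff_sum, Complex.ofReal_sum]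
    refine Finset.sum_congr rfl ?_
    intro σ _
    rw [coeff_smul, coeff_smul, ← spechtPoly_map, coeff_map]
    simp
  intro h0
  have h1 : evTensor x y (inter (nu := nu) hT hU V ⟨W, hWmem⟩) = 0 := by
    rw [h0]
    simp
  change evTensor x y (interLin hT hU V ⟨W, hWmem⟩) = 0 at h1
  rw [interLin_apply, map_sum] at h1
  set S : Finset (Fin n →₀ ℕ) :=
    Finset.univ.biUnion (fun σ : Equiv.Perm (Fin n) => (spechtPoly ℂ (V ∘ σ.symm)).support) with hS
  have h2 : ∀ σ : Equiv.Perm (Fin n),
      evTensor x y (pairL (spechtPoly ℂ (V ∘ σ.symm)) W •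
        (spechtElt hT σ ⊗ₜ[ℂ] spechtElt hU σ))
      = ∑ m ∈ S, ((α σ : ℂ) * coeff m (spechtPoly ℂ (V ∘ σ.symm))) * coeff m W := by
    intro σ
    rw [map_smul, pairL_eq_sum _ _ S (Finset.subset_biUnion_of_mem
      (fun σ : Equiv.Perm (Fin n) => (spechtPoly ℂ (V ∘ σ.symm)).support) (Finset.mem_univ σ))]
    have : evTensor x y (spechtElt hT σ ⊗ₜ[ℂ] spechtElt hU σ) = (α σ : ℂ) := by
      simp only [evTensor, LinearMap.comp_apply, TensorProduct.map_tmul, LinearMap.mul'_apply,
        Submodule.subtype_apply, AlgHom.toLinearMap_apply, spechtElt]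
      rw [aeval_spechtPoly, aeval_spechtPoly, hα]
      push_cast
      rfl
    rw [this, smul_eq_mul, Finset.sum_mul]
    refine Finset.sum_congr rfl ?_
    intro m _
    ring
  rw [Finset.sum_congr rfl (fun σ _ => h2 σ), Finset.sum_comm] at h1
  have h3 : ∀ m, ∑ σ : Equiv.Perm (Fin n),
      ((α σ : ℂ) * coeff m (spechtPoly ℂ (V ∘ σ.symm))) * coeff m W
      = (((coeff m WR) ^ 2 : ℝ) : ℂ) := by
    intro m
    rw [← Finset.sum_mul]
    have : ∑ σ : Equiv.Perm (Fin n), (α σ : ℂ) * coeff m (spechtPoly ℂ (V ∘ σ.symm))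
        = coeff m W := by
      rw [hW, coeff_sum]
      refine Finset.sum_congr rfl ?_
      intro σ _
      rw [coeff_smul, smul_eq_mul]
    rw [this, hcoeff]
    push_cast
    ring
  rw [Finset.sum_congr rfl (fun m _ => h3 m), ← Complex.ofReal_sum, Complex.ofReal_eq_zero] at h1
  have h4 : ∀ m ∈ S, (coeff m WR) ^ 2 = 0 :=
    (Finset.sum_eq_zero_iff_of_nonneg (fun m _ => sq_nonneg _)).mp h1
  apply hWR0
  ext m
  rw [coeff_zero]
  by_cases hm : m ∈ S
  · exact pow_eq_zero_iff (two_ne_zero) |>.mp (h4 m hm)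
  · have h5 : coeff m W = 0 := by
      rw [hW, coeff_sum]
      refine Finset.sum_eq_zero ?_
      intro σ _
      rw [coeff_smul]
      have : m ∉ (spechtPoly ℂ (V ∘ σ.symm)).support := by
        intro hmem
        exact hm (Finset.mem_biUnion.mpr ⟨σ, Finset.mem_univ σ, hmem⟩)
      rw [notMem_support_iff.mp this, smul_zero]
    rw [hcoeff] at h5
    exact_mod_cast h5

end main

end Vale.Agent.P197
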