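import Vale.Agent.Lib.P197.Semigroup

/-!
# The predicate `KP`, its closure properties, and the link with Kronecker coefficients
-/

namespace Vale.Agent.P197

open MvPolynomial

/-- A filling is column-initial: it is injective and every column occupies an initial segment
of rows. -/
structure ColInit {P : Type*} (t : P → ℕ × ℕ) : Prop where
  inj : Function.Injective t
  init : ∀ p i, i < (t p).1 → ∃ q, t q = (i, (t p).2)

/-- Number of points in row `i`. -/
def rowCount {P : Type*} [Fintype P] (t : P → ℕ × ℕ) (i : ℕ) : ℕ :=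
  (Finset.univ.filter fun p => (t p).1 = i).card

/-- `KP a b c`: there is a design (three column-initial fillings of one finite point set) with
row counts `a`, `b`, `c` whose polynomial `kpoly` does not vanish. -/
def KP (a b c : ℕ → ℕ) : Prop :=
  ∃ (P : Type) (_ : Fintype P) (_ : DecidableEq P) (t u v : P → ℕ × ℕ),
    ColInit t ∧ ColInit u ∧ ColInit v ∧ rowCount t = a ∧ rowCount u = b ∧ rowCount v = c ∧
      kpoly t u v ≠ 0

theorem KP.swap12 {a b c : ℕ → ℕ} (h : KP a b c) : KP b a c := by
  obtain ⟨P, _, _, t, u, v, ht, hu, hv, ha, hb, hc, hk⟩ := h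
  exact ⟨P, _, _, u, t, v, hu, ht, hv, hb, ha, hc, kpoly_swap12_ne_zero hk⟩

theorem KP.swap23 {a b c : ℕ → ℕ} (h : KP a b c) : KP a c b := by
  obtain ⟨P, _, _, t, u, v, ht, hu, hv, ha, hb, hc, hk⟩ := h
  exact ⟨P, _, _, t, v, u, ht, hv, hu, ha, hc, hb, kpoly_swap23_ne_zero hk⟩

theorem ColInit.sumFill {P Q : Type*} {t : P → ℕ × ℕ} {t' : Q → ℕ × ℕ} (ht : ColInit t)
    (ht' : ColInit t') : ColInit (sumFill t t') := by
  constructor
  · rintro (p | q) (p' | q') h
    · simp only [Vale.Agent.P197.sumFill, Sum.elim_inl, Prod.mk.injEq] at h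
      congr 1
      apply ht.inj
      ext
      · exact h.1
      · omega
    · simp only [Vale.Agent.P197.sumFill, Sum.elim_inl, Sum.elim_inr, Prod.mk.injEq] at h
      omega
    · simp only [Vale.Agent.P197.sumFill, Sum.elim_inl, Sum.elim_inr, Prod.mk.injEq] at h
      omega
    · simp only [Vale.Agent.P197.sumFill, Sum.elim_inr, Prod.mk.injEq] at h
      congr 1
      apply ht'.inj
      ext
      · exact h.1
      · omega
  · rintro (p | q) i hi
    · simp only [Vale.Agent.P197.sumFill, Sum.elim_inl] at hi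
      obtain ⟨q, hq⟩ := ht.init p i hi
      refine ⟨Sum.inl q, ?_⟩
      simp [Vale.Agent.P197.sumFill, hq]
    · simp only [Vale.Agent.P197.sumFill, Sum.elim_inr] at hi
      obtain ⟨q', hq⟩ := ht'.init q i hi
      refine ⟨Sum.inr q', ?_⟩
      simp [Vale.Agent.P197.sumFill, hq]

theorem rowCount_sumFill {P Q : Type*} [Fintype P] [Fintype Q] (t : P → ℕ × ℕ) (t' : Q → ℕ × ℕ) :
    rowCount (sumFill t t') = rowCount t + rowCount t' := by
  funext i
  rw [Pi.add_apply, rowCount, rowCount, rowCount, Finset.card_filter, Finset.card_filter,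
    Finset.card_filter, Fintype.sum_sum_type]
  rfl

theorem KP.add {a b c a' b' c' : ℕ → ℕ} (h : KP a b c) (h' : KP a' b' c') :
    KP (a + a') (b + b') (c + c') := by
  obtain ⟨P, _, _, t, u, v, ht, hu, hv, ha, hb, hc, hk⟩ := h
  obtain ⟨Q, _, _, t', u', v', ht', hu', hv', ha', hb', hc', hk'⟩ := h'
  refine ⟨P ⊕ Q, inferInstance, inferInstance, sumFill t t', sumFill u u', sumFill v v',
    ht.sumFill ht', hu.sumFill hu', hv.sumFill hv', ?_, ?_, ?_, ?_⟩
  · rw [rowCount_sumFill, ha, ha']
  · rw [rowCount_sumFill, hb, hb']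
  · rw [rowCount_sumFill, hc, hc']
  · rw [kpoly_sumFill]
    exact mul_ne_zero hk hk'

theorem KP.zero : KP 0 0 0 := by
  refine ⟨Empty, inferInstance, inferInstance, fun e => e.elim, fun e => e.elim, fun e => e.elim,
    ⟨fun e => e.elim, fun e => e.elim⟩, ⟨fun e => e.elim, fun e => e.elim⟩,
    ⟨fun e => e.elim, fun e => e.elim⟩, ?_, ?_, ?_, ?_⟩
  · funext i; simp [rowCount]
  · funext i; simp [rowCount]
  · funext i; simp [rowCount]
  · simp [kpoly, colStab]

theorem KP.sum {ι : Type*} (s : Finset ι) (a b c : ι → ℕ → ℕ) (h : ∀ i ∈ s, KP (a i) (b i) (c i)) :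
    KP (∑ i ∈ s, a i) (∑ i ∈ s, b i) (∑ i ∈ s, c i) := by
  classical
  induction s using Finset.induction_on with
  | empty => simpa using KP.zero
  | insert i s hi ih =>
    rw [Finset.sum_insert hi, Finset.sum_insert hi, Finset.sum_insert hi]
    exact (h i (Finset.mem_insert_self i s)).add
      (ih (fun j hj => h j (Finset.mem_insert_of_mem hj)))

end Vale.Agent.P197
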