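import Vale.Agent.Lib.P197.Intertwiner

/-!
# The label-forgetting map and the polynomial `kpoly`
-/

namespace Vale.Agent.P197

open MvPolynomial

section forget

variable {P : Type*} [Fintype P] [DecidableEq P]

/-- The linear map that forgets the labels of the points: the monomial
`∏_p x_p^{a_p} y_p^{b_p} z_p^{c_p}` is sent to `∏_p X_{(a_p, b_p, c_p)}`. -/
noncomputable def forget : MvPolynomial (P × Fin 3) ℝ →ₗ[ℝ] MvPolynomial (ℕ × ℕ × ℕ) ℝ :=
  (basisMonomials (P × Fin 3) ℝ).constr ℝ (fun e => ∏ p, X (e (p, 0), e (p, 1), e (p, 2)))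

theorem forget_monomial (e : P × Fin 3 →₀ ℕ) (r : ℝ) :
    forget (monomial e r) = r • ∏ p, X (R := ℝ) (e (p, 0), e (p, 1), e (p, 2)) := by
  have h : monomial e r = r • (basisMonomials (P × Fin 3) ℝ) e := by
    rw [coe_basisMonomials, smul_monomial, smul_eq_mul, mul_one]
  rw [h, map_smul, forget, Module.Basis.constr_basis]

theorem forget_rename (σ : Equiv.Perm P) (q : MvPolynomial (P × Fin 3) ℝ) :
    forget (rename (Prod.map σ id) q) = forget q := by
  induction q using MvPolynomial.induction_on' with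
  | monomial e r =>
    rw [rename_monomial, forget_monomial, forget_monomial]
    congr 1
    have hinj : Function.Injective (Prod.map σ (id : Fin 3 → Fin 3)) :=
      Function.Injective.prodMap σ.injective Function.injective_id
    have key : ∀ (p : P) (k : Fin 3),
        Finsupp.mapDomain (Prod.map σ (id : Fin 3 → Fin 3)) e (σ p, k) = e (p, k) := by
      intro p k
      have : (σ p, k) = Prod.map σ (id : Fin 3 → Fin 3) (p, k) := rfl
      rw [this, Finsupp.mapDomain_apply hinj]
    rw [← Equiv.prod_comp σ]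
    refine Finset.prod_congr rfl ?_
    intro p _
    rw [key, key, key]
  | add p q hp hq => rw [map_add, map_add, map_add, hp, hq]

theorem forget_mon3 (a b c : P → ℕ) :
    forget ((∏ p, X (p, (0 : Fin 3)) ^ a p) * (∏ p, X (p, (1 : Fin 3)) ^ b p) *
      (∏ p, X (p, (2 : Fin 3)) ^ c p)) = ∏ p, X (R := ℝ) (a p, b p, c p) := by
  set e : P × Fin 3 →₀ ℕ :=
    Finsupp.equivFunOnFinite.symm (fun q : P × Fin 3 => ![a q.1, b q.1, c q.1] q.2) with he
  have h : (∏ p, X (p, (0 : Fin 3)) ^ a p) * (∏ p, X (p, (1 : Fin 3)) ^ b p) *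
      (∏ p, X (p, (2 : Fin 3)) ^ c p) = monomial e (1 : ℝ) := by
    rw [monomial_eq, C_1, one_mul, Finsupp.prod_fintype _ _ (fun i => pow_zero _),
      Fintype.prod_prod_type, ← Finset.prod_mul_distrib, ← Finset.prod_mul_distrib]
    refine Finset.prod_congr rfl ?_
    intro p _
    rw [Fin.prod_univ_three]
    simp [he]
  rw [h, forget_monomial, one_smul]
  simp [he]

end forget

section kpoly

variable {P : Type*} [Fintype P] [DecidableEq P]

/-- The polynomial attached to three fillings of the same point set. -/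
noncomputable def kpoly (t u v : P → ℕ × ℕ) : MvPolynomial (ℕ × ℕ × ℕ) ℝ :=
  ∑ π₁ ∈ colStab t, ∑ π₂ ∈ colStab u, ∑ π₃ ∈ colStab v,
    (Equiv.Perm.sign π₁ : ℤ) • (Equiv.Perm.sign π₂ : ℤ) • (Equiv.Perm.sign π₃ : ℤ) •
      ∏ p, X ((t (π₁ p)).1, (u (π₂ p)).1, (v (π₃ p)).1)

/-- The product of three Specht polynomials in three disjoint sets of variables. -/
noncomputable def triple (t u v : P → ℕ × ℕ) : MvPolynomial (P × Fin 3) ℝ :=
  rename (fun p => (p, (0 : Fin 3))) (spechtPoly ℝ t) *
    rename (fun p => (p, (1 : Fin 3))) (spechtPoly ℝ u) *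
    rename (fun p => (p, (2 : Fin 3))) (spechtPoly ℝ v)

theorem forget_triple (t u v : P → ℕ × ℕ) : forget (triple t u v) = kpoly t u v := by
  unfold triple spechtPoly kpoly
  simp only [map_sum, Finset.sum_mul, Finset.mul_sum, map_zsmul, map_prod, map_pow, rename_X,
    smul_mul_assoc, mul_smul_comm, forget_mon3, Finset.smul_sum]
  rw [Finset.sum_comm]
  rw [Finset.sum_congr rfl (fun _ _ => Finset.sum_comm)]
  rw [Finset.sum_comm]
  refine Finset.sum_congr rfl (fun π₁ _ => Finset.sum_congr rfl (fun π₂ _ =>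
    Finset.sum_congr rfl (fun π₃ _ => ?_)))
  rw [smul_comm (Equiv.Perm.sign π₃ : ℤ), smul_comm (Equiv.Perm.sign π₃ : ℤ),
    smul_comm (Equiv.Perm.sign π₂ : ℤ)]

theorem rename_triple (σ : Equiv.Perm P) (t u v : P → ℕ × ℕ) :
    rename (Prod.map σ id) (triple t u v) = triple (t ∘ σ.symm) (u ∘ σ.symm) (v ∘ σ.symm) := by
  unfold triple
  rw [map_mul, map_mul, rename_rename, rename_rename, rename_rename,
    ← rename_spechtPoly ℝ σ t, ← rename_spechtPoly ℝ σ u, ← rename_spechtPoly ℝ σ v,
    rename_rename, rename_rename, rename_rename]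
  rfl

theorem eval_triple (ξ : P × Fin 3 → ℝ) (t u v : P → ℕ × ℕ) :
    eval ξ (triple t u v) = eval (fun p => ξ (p, 0)) (spechtPoly ℝ t) *
      eval (fun p => ξ (p, 1)) (spechtPoly ℝ u) * eval (fun p => ξ (p, 2)) (spechtPoly ℝ v) := by
  unfold triple
  rw [map_mul, map_mul, eval_rename, eval_rename, eval_rename]
  rfl

theorem exists_eval_ne_zero_of_kpoly_ne_zero (t u v : P → ℕ × ℕ) (h : kpoly t u v ≠ 0) :
    ∃ x y z : P → ℝ, ∑ σ : Equiv.Perm P, eval x (spechtPoly ℝ (t ∘ σ.symm)) *
      eval y (spechtPoly ℝ (u ∘ σ.symm)) * eval z (spechtPoly ℝ (v ∘ σ.symm)) ≠ 0 := by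
  by_contra hcon
  push Not at hcon
  apply h
  have h0 : ∑ σ : Equiv.Perm P, rename (Prod.map σ id) (triple t u v) = 0 := by
    apply MvPolynomial.funext
    intro ξ
    rw [map_sum, map_zero, ← hcon (fun p => ξ (p, 0)) (fun p => ξ (p, 1)) (fun p => ξ (p, 2))]
    refine Finset.sum_congr rfl ?_
    intro σ _
    rw [rename_triple, eval_triple]
  have h1 := congrArg forget h0
  rw [map_sum, map_zero, Finset.sum_congr rfl (fun σ _ => forget_rename σ (triple t u v)),
    Finset.sum_const, forget_triple] at h1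
  rcases smul_eq_zero.mp h1 with h2 | h2
  · exact absurd h2 (Finset.card_ne_zero.mpr ⟨1, Finset.mem_univ _⟩)
  · exact h2

end kpoly

end Vale.Agent.P197
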