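import Vale.Agent.Lib.P197.KP

/-!
# Rearranging the columns of a column-initial filling into a tableau, and the final link
-/

namespace Vale.Agent.P197

open MvPolynomial

theorem eq_range_card_of_downward_closed (S : Finset ℕ) (h : ∀ x ∈ S, ∀ y < x, y ∈ S) :
    S = Finset.range S.card := by
  apply Finset.eq_of_subset_of_card_le
  · intro x hx
    have hsub : Finset.range (x + 1) ⊆ S := by
      intro y hy
      rcases Nat.lt_or_ge y x with hlt | hge
      · exact h x hx y hlt
      · have : y = x := by
          have := Finset.mem_range.mp hy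
          omega
        rw [this]; exact hx
    have := Finset.card_le_card hsub
    rw [Finset.card_range] at this
    exact Finset.mem_range.mpr (by omega)
  · rw [Finset.card_range]

section rearrange

variable {P : Type*} [Fintype P] [DecidableEq P]

/-- Height of column `j`. -/
def colHeight (t : P → ℕ × ℕ) (j : ℕ) : ℕ := (Finset.univ.filter fun p => (t p).2 = j).card

theorem ColInit.rows_eq {t : P → ℕ × ℕ} (ht : ColInit t) (j : ℕ) :
    (Finset.univ.filter fun p => (t p).2 = j).image (fun p => (t p).1)
      = Finset.range (colHeight t j) := by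
  have hcard : ((Finset.univ.filter fun p => (t p).2 = j).image (fun p => (t p).1)).card
      = colHeight t j := by
    apply Finset.card_image_of_injOn
    intro p hp q hq hpq
    simp only [Finset.coe_filter, Finset.mem_univ, true_and, Set.mem_ofPred_eq] at hp hq
    apply ht.inj
    ext
    · exact hpq
    · rw [hp, hq]
  rw [← hcard]
  apply eq_range_card_of_downward_closed
  intro x hx y hy
  simp only [Finset.mem_image, Finset.mem_filter, Finset.mem_univ, true_and] at hx ⊢
  obtain ⟨p, hp, rfl⟩ := hx
  obtain ⟨q, hq⟩ := ht.init p y hy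
  exact ⟨q, by rw [hq, hp], by rw [hq]⟩

theorem ColInit.row_lt {t : P → ℕ × ℕ} (ht : ColInit t) (p : P) :
    (t p).1 < colHeight t (t p).2 := by
  have : (t p).1 ∈ (Finset.univ.filter fun q => (t q).2 = (t p).2).image (fun q => (t q).1) :=
    Finset.mem_image.mpr ⟨p, by simp, rfl⟩
  rw [ht.rows_eq] at this
  exact Finset.mem_range.mp this

theorem ColInit.exists_of_lt {t : P → ℕ × ℕ} (ht : ColInit t) {i j : ℕ}
    (h : i < colHeight t j) : ∃ p, t p = (i, j) := by
  have : i ∈ (Finset.univ.filter fun q => (t q).2 = j).image (fun q => (t q).1) := by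
    rw [ht.rows_eq]
    exact Finset.mem_range.mpr h
  simp only [Finset.mem_image, Finset.mem_filter, Finset.mem_univ, true_and] at this
  obtain ⟨p, hp, hp'⟩ := this
  exact ⟨p, by ext <;> simp [hp, hp']⟩

/-- The set of used columns. -/
def usedCols (t : P → ℕ × ℕ) : Finset ℕ := Finset.univ.image fun p => (t p).2

theorem ColInit.rowCount_eq {t : P → ℕ × ℕ} (ht : ColInit t) (i : ℕ) :
    rowCount t i = ((usedCols t).filter fun j => i < colHeight t j).card := by
  unfold rowCount
  apply Finset.card_bij (fun p _ => (t p).2)
  · intro p hp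
    simp only [Finset.mem_filter, Finset.mem_univ, true_and] at hp
    simp only [Finset.mem_filter, usedCols, Finset.mem_image, Finset.mem_univ, true_and]
    exact ⟨⟨p, rfl⟩, hp ▸ ht.row_lt p⟩
  · intro p hp q hq hpq
    simp only [Finset.mem_filter, Finset.mem_univ, true_and] at hp hq
    apply ht.inj
    ext
    · rw [hp, hq]
    · exact hpq
  · intro j hj
    simp only [Finset.mem_filter] at hj
    obtain ⟨p, hp⟩ := ht.exists_of_lt hj.2
    exact ⟨p, by simp [hp], by simp [hp]⟩

/-- The rank of column `j` when the used columns are sorted by decreasing height. -/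
def colRank (t : P → ℕ × ℕ) (j : ℕ) : ℕ :=
  ((usedCols t).filter fun j' =>
    colHeight t j < colHeight t j' ∨ (colHeight t j' = colHeight t j ∧ j' < j)).card

theorem colRank_lt_of_before (t : P → ℕ × ℕ) {j j' : ℕ} (hj' : j' ∈ usedCols t)
    (h : colHeight t j < colHeight t j' ∨ (colHeight t j' = colHeight t j ∧ j' < j)) :
    colRank t j' < colRank t j := by
  apply Finset.card_lt_card
  rw [Finset.ssubset_iff_of_subset]
  · refine ⟨j', ?_, ?_⟩
    · exact Finset.mem_filter.mpr ⟨hj', h⟩
    · simp
  · intro k hk
    simp only [Finset.mem_filter] at hk ⊢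
    refine ⟨hk.1, ?_⟩
    have := hk.2
    omega

theorem colRank_injOn (t : P → ℕ × ℕ) {j j' : ℕ} (hj : j ∈ usedCols t) (hj' : j' ∈ usedCols t)
    (h : colRank t j = colRank t j') : j = j' := by
  by_contra hne
  have : (colHeight t j < colHeight t j' ∨ (colHeight t j' = colHeight t j ∧ j' < j)) ∨
      (colHeight t j' < colHeight t j ∨ (colHeight t j = colHeight t j' ∧ j < j')) := by
    omega
  rcases this with h1 | h1
  · have := colRank_lt_of_before t hj' h1
    omega
  · have := colRank_lt_of_before t hj h1
    omega

theorem ColInit.colRank_lt_iff {t : P → ℕ × ℕ} (ht : ColInit t) {j : ℕ} (hj : j ∈ usedCols t)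
    (i : ℕ) : colRank t j < rowCount t i ↔ i < colHeight t j := by
  rw [ht.rowCount_eq]
  constructor
  · intro h
    by_contra hcon
    have hsub : ((usedCols t).filter fun j' => i < colHeight t j') ⊆
        ((usedCols t).filter fun j' =>
          colHeight t j < colHeight t j' ∨ (colHeight t j' = colHeight t j ∧ j' < j)) := by
      intro k hk
      simp only [Finset.mem_filter] at hk ⊢
      refine ⟨hk.1, ?_⟩
      have := hk.2
      omega
    have := Finset.card_le_card hsub
    unfold colRank at h
    omega
  · intro h
    apply Finset.card_lt_card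
    rw [Finset.ssubset_iff_of_subset]
    · refine ⟨j, Finset.mem_filter.mpr ⟨hj, h⟩, ?_⟩
      simp
    · intro k hk
      simp only [Finset.mem_filter] at hk ⊢
      refine ⟨hk.1, ?_⟩
      have := hk.2
      omega

/-- The filling with its columns re-indexed by rank. -/
def sortCols (t : P → ℕ × ℕ) : P → ℕ × ℕ := fun p => ((t p).1, colRank t (t p).2)

theorem mem_usedCols (t : P → ℕ × ℕ) (p : P) : (t p).2 ∈ usedCols t :=
  Finset.mem_image.mpr ⟨p, Finset.mem_univ p, rfl⟩

theorem sortCols_col_eq_iff (t : P → ℕ × ℕ) (p q : P) :
    (sortCols t p).2 = (sortCols t q).2 ↔ (t p).2 = (t q).2 := by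
  constructor
  · intro h
    exact colRank_injOn t (mem_usedCols t p) (mem_usedCols t q) h
  · intro h
    simp [sortCols, h]

theorem colStab_sortCols (t : P → ℕ × ℕ) : colStab (sortCols t) = colStab t := by
  ext π
  simp only [colStab, Finset.mem_filter, Finset.mem_univ, true_and, sortCols_col_eq_iff]

theorem kpoly_sortCols (t u v : P → ℕ × ℕ) :
    kpoly (sortCols t) (sortCols u) (sortCols v) = kpoly t u v := by
  unfold kpoly
  rw [colStab_sortCols, colStab_sortCols, colStab_sortCols]
  rfl

theorem ColInit.isTableau_sortCols {t : P → ℕ × ℕ} (ht : ColInit t) (μ : YoungDiagram)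
    (h : ∀ i, rowCount t i = μ.rowLen i) : IsTableau μ (sortCols t) := by
  constructor
  · intro p q hpq
    apply ht.inj
    ext
    · exact (congrArg Prod.fst hpq : (sortCols t p).1 = (sortCols t q).1)
    · exact (sortCols_col_eq_iff t p q).mp (congrArg Prod.snd hpq)
  · rintro ⟨i, k⟩
    rw [YoungDiagram.mem_iff_lt_rowLen, ← h i]
    constructor
    · intro hk
      -- surjectivity by counting
      have himg : ((usedCols t).filter fun j => i < colHeight t j).image (colRank t)
          = Finset.range (rowCount t i) := by
        apply Finset.eq_of_subset_of_card_le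
        · intro x hx
          simp only [Finset.mem_image, Finset.mem_filter] at hx
          obtain ⟨j, ⟨hj, hij⟩, rfl⟩ := hx
          exact Finset.mem_range.mpr ((ht.colRank_lt_iff hj i).mpr hij)
        · rw [Finset.card_range, Finset.card_image_of_injOn, ht.rowCount_eq]
          intro j hj j' hj' hjj
          simp only [Finset.coe_filter, Set.mem_ofPred_eq] at hj hj'
          exact colRank_injOn t hj.1 hj'.1 hjj
      have hk' : k ∈ ((usedCols t).filter fun j => i < colHeight t j).image (colRank t) := by
        rw [himg]
        exact Finset.mem_range.mpr hk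
      simp only [Finset.mem_image, Finset.mem_filter] at hk'
      obtain ⟨j, ⟨_, hij⟩, rfl⟩ := hk'
      obtain ⟨p, hp⟩ := ht.exists_of_lt hij
      exact ⟨p, by simp [sortCols, hp]⟩
    · rintro ⟨p, hp⟩
      simp only [sortCols, Prod.mk.injEq] at hp
      rw [← hp.1, ← hp.2]
      exact (ht.colRank_lt_iff (mem_usedCols t p) _).mpr (ht.row_lt p)

end rearrange

theorem IsTableau.card_eq {μ : YoungDiagram} {P : Type*} [Fintype P] {t : P → ℕ × ℕ}
    (h : IsTableau μ t) : Fintype.card P = μ.card := by
  classical
  have : Finset.univ.image t = μ.cells := by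
    ext c
    rw [YoungDiagram.mem_cells, h.2 c]
    simp
  rw [YoungDiagram.card, ← this, Finset.card_image_of_injective _ h.1, Finset.card_univ]

instance spechtSub_finite (n : ℕ) (μ : YoungDiagram) :
    Module.Finite ℂ (spechtSub n μ).toSubmodule := by
  apply Module.Finite.span_of_finite
  have hfin : {t : Fin n → ℕ × ℕ | ∀ i, t i ∈ (μ.cells : Set (ℕ × ℕ))}.Finite := by
    have := Set.Finite.pi (t := fun _ : Fin n => (μ.cells : Set (ℕ × ℕ)))
      (fun _ => Finset.finite_toSet _)
    refine this.subset ?_
    intro t ht
    simpa [Set.mem_pi] using ht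
  refine (hfin.image (fun t => spechtPoly ℂ t)).subset ?_
  rintro f ⟨t, ht, rfl⟩
  refine ⟨t, ?_, rfl⟩
  intro i
  exact (YoungDiagram.mem_cells _).mpr ((ht.2 (t i)).mpr ⟨i, rfl⟩)

theorem finrank_intertwining_pos {k G V W : Type*} [Field k] [Monoid G] [AddCommMonoid V]
    [Module k V] [AddCommMonoid W] [Module k W] [Module.Finite k V] [Module.Finite k W]
    (ρ : Representation k G V) (σ : Representation k G W)
    (f : Representation.IntertwiningMap ρ σ) (hf : f ≠ 0) :
    0 < Module.finrank k (Representation.IntertwiningMap ρ σ) := by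
  let _ : AddCommGroup V := Module.addCommMonoidToAddCommGroup k
  let _ : AddCommGroup W := Module.addCommMonoidToAddCommGroup k
  have hfin : Module.Finite k (Representation.IntertwiningMap ρ σ) :=
    Module.Finite.of_injective (Representation.IntertwiningMap.toLinearMapl (ρ := ρ) (σ := σ))
      (Representation.IntertwiningMap.toLinearMap_injective _ _)
  have hinj : Function.Injective
      (LinearMap.toSpanSingleton k (Representation.IntertwiningMap ρ σ) f) := by
    intro c c' h
    have h' : c • f.toLinearMap = c' • f.toLinearMap := by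
      have := congrArg Representation.IntertwiningMap.toLinearMap h
      simpa using this
    have hf' : f.toLinearMap ≠ 0 := by
      intro h0
      apply hf
      ext1
      exact h0
    exact smul_left_injective k hf' h'
  have := LinearMap.finrank_le_finrank_of_injective hinj
  rw [Module.finrank_self] at this
  omega

theorem kronecker_pos_of_ne_zero {n : ℕ} {lam mu nu : YoungDiagram}
    (f : Representation.IntertwiningMap (spechtRep n nu)
      ((spechtRep n lam).tprod (spechtRep n mu))) (hf : f ≠ 0) : 0 < kronecker n lam mu nu :=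
  finrank_intertwining_pos _ _ f hf

/-- The link: a design with the right row counts gives a positive Kronecker coefficient. -/
theorem kronecker_pos_of_KP {lam mu nu : YoungDiagram}
    (h : KP lam.rowLen mu.rowLen nu.rowLen) : 0 < kronecker lam.card lam mu nu := by
  obtain ⟨P, _, _, t, u, v, ht, hu, hv, ha, hb, hc, hk⟩ := h
  have hT := ht.isTableau_sortCols lam (fun i => congrFun ha i)
  have hU := hu.isTableau_sortCols mu (fun i => congrFun hb i)
  have hV := hv.isTableau_sortCols nu (fun i => congrFun hc i)
  let e : P ≃ Fin lam.card := Fintype.equivFinOfCardEq hT.card_eq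
  have hk' : kpoly (sortCols t ∘ e.symm) (sortCols u ∘ e.symm) (sortCols v ∘ e.symm) ≠ 0 := by
    rw [kpoly_comp_equiv, kpoly_sortCols]
    exact hk
  obtain ⟨x, y, z, hxyz⟩ := exists_eval_ne_zero_of_kpoly_ne_zero _ _ _ hk'
  exact kronecker_pos_of_ne_zero _
    (inter_ne_zero (hT.comp_equiv e.symm) (hU.comp_equiv e.symm) (hV.comp_equiv e.symm) x y z hxyz)

end Vale.Agent.P197
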