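import Vale.Agent.Lib.P197.KPoly

/-!
# Relabelling, symmetry and multiplicativity of `kpoly`
-/

namespace Vale.Agent.P197

open MvPolynomial

section relabel

variable {P Q : Type*} [Fintype P] [DecidableEq P] [Fintype Q] [DecidableEq Q]

theorem sum_colStab_comp_equiv {M : Type*} [AddCommMonoid M] (e : P ≃ Q) (t : P → ℕ × ℕ)
    (F : Equiv.Perm Q → M) :
    ∑ π ∈ colStab (t ∘ e.symm), F π = ∑ π ∈ colStab t, F (e.permCongr π) := by
  symm
  refine Finset.sum_equiv e.permCongr ?_ (fun _ _ => rfl)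
  intro π
  simp only [colStab, Finset.mem_filter, Finset.mem_univ, true_and, Function.comp_apply,
    Equiv.permCongr_apply, Equiv.symm_apply_apply]
  constructor
  · intro h q
    exact h (e.symm q)
  · intro h p
    simpa using h (e p)

theorem kpoly_comp_equiv (e : P ≃ Q) (t u v : P → ℕ × ℕ) :
    kpoly (t ∘ e.symm) (u ∘ e.symm) (v ∘ e.symm) = kpoly t u v := by
  unfold kpoly
  rw [sum_colStab_comp_equiv]
  refine Finset.sum_congr rfl (fun π₁ _ => ?_)
  rw [sum_colStab_comp_equiv]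
  refine Finset.sum_congr rfl (fun π₂ _ => ?_)
  rw [sum_colStab_comp_equiv]
  refine Finset.sum_congr rfl (fun π₃ _ => ?_)
  rw [Equiv.Perm.sign_permCongr, Equiv.Perm.sign_permCongr, Equiv.Perm.sign_permCongr]
  congr 3
  symm
  refine Fintype.prod_equiv e _ _ ?_
  intro p
  simp

end relabel

section symmetry

variable {P : Type*} [Fintype P] [DecidableEq P]

theorem kpoly_swap12 (t u v : P → ℕ × ℕ) :
    kpoly u t v = rename (fun x : ℕ × ℕ × ℕ => (x.2.1, x.1, x.2.2)) (kpoly t u v) := by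
  unfold kpoly
  simp only [map_sum, map_zsmul, map_prod, rename_X]
  rw [Finset.sum_comm]
  refine Finset.sum_congr rfl (fun π₁ _ => Finset.sum_congr rfl (fun π₂ _ =>
    Finset.sum_congr rfl (fun π₃ _ => ?_)))
  rw [smul_comm]

theorem kpoly_swap23 (t u v : P → ℕ × ℕ) :
    kpoly t v u = rename (fun x : ℕ × ℕ × ℕ => (x.1, x.2.2, x.2.1)) (kpoly t u v) := by
  unfold kpoly
  simp only [map_sum, map_zsmul, map_prod, rename_X]
  refine Finset.sum_congr rfl (fun π₁ _ => ?_)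
  rw [Finset.sum_comm]
  refine Finset.sum_congr rfl (fun π₂ _ => Finset.sum_congr rfl (fun π₃ _ => ?_))
  rw [smul_comm (Equiv.Perm.sign π₃ : ℤ) (Equiv.Perm.sign π₂ : ℤ)]

theorem kpoly_swap12_ne_zero {t u v : P → ℕ × ℕ} (h : kpoly t u v ≠ 0) : kpoly u t v ≠ 0 := by
  rw [kpoly_swap12]
  intro h0
  apply h
  have hinj : Function.Injective (fun x : ℕ × ℕ × ℕ => (x.2.1, x.1, x.2.2)) := by
    rintro ⟨a, b, c⟩ ⟨a', b', c'⟩ hx
    simp only [Prod.mk.injEq] at hx
    obtain ⟨h1, h2, h3⟩ := hx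
    simp [h1, h2, h3]
  exact rename_injective _ hinj (by rw [h0, map_zero])

theorem kpoly_swap23_ne_zero {t u v : P → ℕ × ℕ} (h : kpoly t u v ≠ 0) : kpoly t v u ≠ 0 := by
  rw [kpoly_swap23]
  intro h0
  apply h
  have hinj : Function.Injective (fun x : ℕ × ℕ × ℕ => (x.1, x.2.2, x.2.1)) := by
    rintro ⟨a, b, c⟩ ⟨a', b', c'⟩ hx
    simp only [Prod.mk.injEq] at hx
    obtain ⟨h1, h2, h3⟩ := hx
    simp [h1, h2, h3]
  exact rename_injective _ hinj (by rw [h0, map_zero])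

end symmetry

section sum

variable {P Q : Type*} [Fintype P] [DecidableEq P] [Fintype Q] [DecidableEq Q]

/-- Disjoint union of two fillings: the columns of the first get even indices, those of the
second odd indices. -/
def sumFill (t : P → ℕ × ℕ) (t' : Q → ℕ × ℕ) : P ⊕ Q → ℕ × ℕ :=
  Sum.elim (fun p => ((t p).1, 2 * (t p).2)) (fun q => ((t' q).1, 2 * (t' q).2 + 1))

theorem sum_colStab_sumFill {M : Type*} [AddCommMonoid M] (t : P → ℕ × ℕ) (t' : Q → ℕ × ℕ)
    (F : Equiv.Perm (P ⊕ Q) → M) :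
    ∑ π ∈ colStab (sumFill t t'), F π
      = ∑ π ∈ colStab t, ∑ π' ∈ colStab t', F (Equiv.Perm.sumCongr π π') := by
  rw [← Finset.sum_product']
  symm
  refine Finset.sum_bij (fun x _ => Equiv.Perm.sumCongr x.1 x.2) ?_ ?_ ?_ (fun _ _ => rfl)
  · rintro ⟨π, π'⟩ hx
    simp only [Finset.mem_product, colStab, Finset.mem_filter, Finset.mem_univ, true_and] at hx ⊢
    rintro (p | q)
    · simp [sumFill, hx.1 p]
    · simp [sumFill, hx.2 q]
  · rintro ⟨π, π'⟩ _ ⟨ϖ, ϖ'⟩ _ hx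
    have := Equiv.Perm.sumCongrHom_injective (α := P) (β := Q)
      (a₁ := (π, π')) (a₂ := (ϖ, ϖ')) hx
    exact this
  · intro ϖ hϖ
    simp only [colStab, Finset.mem_filter, Finset.mem_univ, true_and] at hϖ
    have hmaps : Set.MapsTo ϖ (Set.range Sum.inl) (Set.range Sum.inl) := by
      rintro _ ⟨p, rfl⟩
      have h := hϖ (Sum.inl p)
      rcases hq : ϖ (Sum.inl p) with p' | q'
      · exact ⟨p', rfl⟩
      · rw [hq] at h
        simp only [sumFill, Sum.elim_inr, Sum.elim_inl] at h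
        omega
    obtain ⟨⟨π, π'⟩, hππ⟩ := Equiv.Perm.mem_sumCongrHom_range_of_perm_mapsTo_inl hmaps
    have hππ' : Equiv.Perm.sumCongr π π' = ϖ := hππ
    refine ⟨(π, π'), ?_, hππ'⟩
    simp only [Finset.mem_product, colStab, Finset.mem_filter, Finset.mem_univ, true_and]
    constructor
    · intro p
      have h := hϖ (Sum.inl p)
      rw [← hππ'] at h
      simp only [sumFill, Equiv.Perm.sumCongr_apply, Sum.map_inl, Sum.elim_inl] at h
      omega
    · intro q
      have h := hϖ (Sum.inr q)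
      rw [← hππ'] at h
      simp only [sumFill, Equiv.Perm.sumCongr_apply, Sum.map_inr, Sum.elim_inr] at h
      omega

theorem sum_six {R α α' β β' γ γ' : Type*} [CommSemiring R] (A : Finset α) (A' : Finset α')
    (B : Finset β) (B' : Finset β') (C : Finset γ) (C' : Finset γ')
    (f : α → β → γ → R) (g : α' → β' → γ' → R) :
    ∑ a ∈ A, ∑ a' ∈ A', ∑ b ∈ B, ∑ b' ∈ B', ∑ c ∈ C, ∑ c' ∈ C', f a b c * g a' b' c'
      = (∑ a ∈ A, ∑ b ∈ B, ∑ c ∈ C, f a b c) * (∑ a' ∈ A', ∑ b' ∈ B', ∑ c' ∈ C', g a' b' c') := by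
  simp_rw [← Finset.sum_mul_sum]

theorem kpoly_sumFill (t u v : P → ℕ × ℕ) (t' u' v' : Q → ℕ × ℕ) :
    kpoly (sumFill t t') (sumFill u u') (sumFill v v') = kpoly t u v * kpoly t' u' v' := by
  unfold kpoly
  rw [← sum_six]
  rw [sum_colStab_sumFill]
  refine Finset.sum_congr rfl (fun π₁ _ => Finset.sum_congr rfl (fun π₁' _ => ?_))
  rw [sum_colStab_sumFill]
  refine Finset.sum_congr rfl (fun π₂ _ => Finset.sum_congr rfl (fun π₂' _ => ?_))
  rw [sum_colStab_sumFill]
  refine Finset.sum_congr rfl (fun π₃ _ => Finset.sum_congr rfl (fun π₃' _ => ?_))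
  rw [Equiv.Perm.sign_sumCongr, Equiv.Perm.sign_sumCongr, Equiv.Perm.sign_sumCongr,
    Fintype.prod_sum_type]
  simp only [Equiv.Perm.sumCongr_apply, Sum.map_inl, Sum.map_inr, sumFill, Sum.elim_inl,
    Sum.elim_inr, Units.val_mul, smul_mul_assoc, mul_smul_comm, mul_smul]
  simp only [← mul_smul]
  congr 1
  ring

end sum

end Vale.Agent.P197
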