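import Vale.Agent.Lib.P197.Atoms

/-!
# Staircases, columns, and the block theorem
-/

namespace Vale.Agent.P197

theorem rowLen_eq_of_forall (μ : YoungDiagram) (r k : ℕ) (h : ∀ c, (r, c) ∈ μ ↔ c < k) :
    μ.rowLen r = k := by
  apply le_antisymm
  · by_contra hcon
    push Not at hcon
    have := (h k).mp (YoungDiagram.mem_iff_lt_rowLen.mpr hcon)
    omega
  · by_contra hcon
    push Not at hcon
    have := YoungDiagram.mem_iff_lt_rowLen.mp ((h (μ.rowLen r)).mpr hcon)
    omega

theorem colLen_eq_of_forall (μ : YoungDiagram) (c k : ℕ) (h : ∀ r, (r, c) ∈ μ ↔ r < k) :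
    μ.colLen c = k := by
  apply le_antisymm
  · by_contra hcon
    push Not at hcon
    have := (h k).mp (YoungDiagram.mem_iff_lt_colLen.mpr hcon)
    omega
  · by_contra hcon
    push Not at hcon
    have := YoungDiagram.mem_iff_lt_colLen.mp ((h (μ.colLen c)).mpr hcon)
    omega

theorem mem_staircase (m r c : ℕ) : (r, c) ∈ staircase m ↔ r + c < m := by
  rw [← YoungDiagram.mem_cells]
  simp only [staircase, Finset.mem_filter, Finset.mem_product, Finset.mem_range]
  omega

theorem staircase_rowLen (m r : ℕ) : (staircase m).rowLen r = m - r := by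
  apply rowLen_eq_of_forall
  intro c
  rw [mem_staircase]
  omega

theorem staircase_colLen (m c : ℕ) : (staircase m).colLen c = m - c := by
  apply colLen_eq_of_forall
  intro r
  rw [mem_staircase]
  omega

theorem card_eq_sum_rowLen (μ : YoungDiagram) (H : ℕ) (hH : ∀ r, H ≤ r → μ.rowLen r = 0) :
    μ.card = ∑ r ∈ Finset.range H, μ.rowLen r := by
  rw [YoungDiagram.card, Finset.card_eq_sum_card_fiberwise (f := Prod.fst) (t := Finset.range H)]
  · refine Finset.sum_congr rfl (fun r _ => ?_)
    rw [YoungDiagram.rowLen_eq_card]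
    rfl
  · intro c hc
    have hc' : (c.1, c.2) ∈ μ := (YoungDiagram.mem_cells _).mp hc
    rw [YoungDiagram.mem_iff_lt_rowLen] at hc'
    by_contra hcon
    have : H ≤ c.1 := by simpa using hcon
    rw [hH _ this] at hc'
    omega

theorem sum_range_sub (m : ℕ) : ∑ r ∈ Finset.range m, (m - r) = m * (m + 1) / 2 := by
  induction m with
  | zero => simp
  | succ n ih =>
    rw [Finset.sum_range_succ']
    have : ∀ r ∈ Finset.range n, n + 1 - (r + 1) = n - r := by
      intro r _
      omega
    rw [Finset.sum_congr rfl this, ih]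
    have h2 : (n + 1) * (n + 1 + 1) = n * (n + 1) + 2 * (n + 1) := by ring
    rw [h2, Nat.add_mul_div_left _ _ (by norm_num : 0 < 2)]
    omega

theorem staircase_card (m : ℕ) : (staircase m).card = m * (m + 1) / 2 := by
  rw [card_eq_sum_rowLen (staircase m) m (fun r hr => by rw [staircase_rowLen]; omega)]
  rw [Finset.sum_congr rfl (fun r _ => staircase_rowLen m r), sum_range_sub]

/-- Row lengths of a single column of height `k`. -/
def colF (k : ℕ) : ℕ → ℕ := fun i => if i < k then 1 else 0

theorem KP_atom' (β : YoungDiagram) : KP (colF β.card) β.rowLen β.colLen := KP_atom β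

/-- The atom `(ρ_j, ρ_j, 1^{N_j})`. -/
theorem KP_staircase (j : ℕ) :
    KP (fun r => j - r) (fun r => j - r) (colF (j * (j + 1) / 2)) := by
  have h := (KP_atom' (staircase j)).swap12.swap23
  rw [staircase_card] at h
  have h1 : (staircase j).rowLen = fun r => j - r := funext (staircase_rowLen j)
  have h2 : (staircase j).colLen = fun r => j - r := funext (staircase_colLen j)
  rw [h1, h2] at h
  exact h

/-- The block theorem: if `ρ_m = ρ_j + ∑ (1^{|β_i|}) + ∑ γ_i = ρ_j + ∑ β_i + ∑ (1^{|γ_i|})`
(sums of partitions, row by row) then `g(ρ_m, ρ_m, ν) > 0` for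
`ν = (1^{N_j}) + ∑ β_i' + ∑ γ_i'`. -/
theorem kronecker_staircase_pos_of_blocks (m j : ℕ) {ι κ : Type*} (s : Finset ι) (s' : Finset κ)
    (β : ι → YoungDiagram) (γ : κ → YoungDiagram) (ν : YoungDiagram)
    (h1 : ∀ r, (j - r) + ∑ i ∈ s, (if r < (β i).card then 1 else 0)
      + ∑ i ∈ s', (γ i).rowLen r = m - r)
    (h2 : ∀ r, (j - r) + ∑ i ∈ s, (β i).rowLen r
      + ∑ i ∈ s', (if r < (γ i).card then 1 else 0) = m - r)
    (h3 : ∀ r, ν.rowLen r = (if r < j * (j + 1) / 2 then 1 else 0)
      + ∑ i ∈ s, (β i).colLen r + ∑ i ∈ s', (γ i).colLen r) :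
    0 < kronecker (m * (m + 1) / 2) (staircase m) (staircase m) ν := by
  have hA := KP.sum s (fun i => colF (β i).card) (fun i => (β i).rowLen) (fun i => (β i).colLen)
    (fun i _ => KP_atom' (β i))
  have hB := KP.sum s' (fun i => (γ i).rowLen) (fun i => colF (γ i).card) (fun i => (γ i).colLen)
    (fun i _ => (KP_atom' (γ i)).swap12)
  have hK := ((KP_staircase j).add hA).add hB
  rw [← staircase_card m]
  apply kronecker_pos_of_KP
  convert hK using 1
  · funext r
    rw [staircase_rowLen, ← h1 r]
    simp [colF, Finset.sum_apply]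
  · funext r
    rw [staircase_rowLen, ← h2 r]
    simp [colF, Finset.sum_apply]
  · funext r
    rw [h3 r]
    simp [colF, Finset.sum_apply]

end Vale.Agent.P197
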